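import Vale.Agent.P207.N4.Dim
import Vale.Agent.P207.N4.H348.Null

/-!
# P207, line N3, P2: absolute continuity of the Liouville measure in Hopf coordinates

`Vis`: the polar systems of all points. `Vis.null_leaf`: absolute continuity of the horospherical
foliation. `Vis.hopfAC`: the structure `HopfAC` of `H732/Liv.lean`.
-/

open Set Filter Topology Metric MeasureTheory
open scoped ENNReal Pointwise

noncomputable section

namespace Vale.Agent.P207.N4.H348

open Vale.Agent.P207.N3 Vale.Agent.P207.N3.H348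

variable [Dim]

open H732

variable {Γ X B : Type} [Group Γ] [MetricSpace X] [ProperSpace X] [MulAction Γ X]
  [IsIsometricSMul Γ X] [TopologicalSpace B] [CompactSpace B] [T2Space B] [MulAction Γ B]
  [ContinuousConstSMul Γ B] [MeasurableSpace B] [BorelSpace B] {L : Leaf Γ X B}
  {Y : Type} [MetricSpace Y] [ProperSpace Y] [MulAction Γ Y] [IsIsometricSMul Γ Y]
  [MeasurableSpace Y] [BorelSpace Y]

/-- the image of a polar system under an element of the group -/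
def PSys.smul {F : Foot L Y} {W : X → ℝ} {vol : Measure Y} {Ω : Type} [MeasurableSpace Ω]
    {K : Set X} {c C : ℝ} (P : PSys F W vol Ω K c C) (hg : ∀ (g : Γ) x, W (g • x) = W x) (g : Γ)
    (hvol : MeasurePreserving (fun y : Y => g • y) vol vol) :
    PSys F W vol Ω ((fun x => g • x) '' K) c C where
  θ := P.θ
  finite := P.finite
  Ψ v s := g • P.Ψ v s
  j := P.j
  meas_Ψ := (continuous_const_smul g).measurable.comp P.meas_Ψ
  meas_j := P.meas_j
  R := (fun y => g⁻¹ • y) ⁻¹' P.R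
  meas_R := (continuous_const_smul g⁻¹).measurable P.meas_R
  range := by
    intro y hy
    obtain ⟨v, s, hs, h⟩ := P.range _ hy
    exact ⟨v, s, hs, by rw [h, smul_inv_smul]⟩
  ρ y := P.ρ (g⁻¹ • y)
  meas_ρ := P.meas_ρ.comp (continuous_const_smul g⁻¹).measurable
  ρ_Ψ v s hs := by rw [inv_smul_smul, P.ρ_Ψ v s hs]
  lint := by
    intro G hG
    have hgm : Measurable fun y : Y => g • y := (continuous_const_smul g).measurable
    have h1 := P.lint (fun y => G (g • y)) (hG.comp hgm)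
    rw [← h1]
    have h2 := hvol.setLIntegral_comp_preimage
      ((continuous_const_smul g⁻¹).measurable P.meas_R : MeasurableSet ((fun y : Y => g⁻¹ • y) ⁻¹' P.R)) hG
    rw [← h2]
    congr 2
    ext y
    simp [inv_smul_smul]
  f v := g • P.f v
  f_mem v := ⟨_, P.f_mem v, rfl⟩
  f_ep := by
    simp only [ep_smul]
    exact (continuous_const_smul g).measurable.comp P.f_ep
  f_aa := by
    simp only [aa_smul L hg]
    exact P.f_aa
  Ψ_eq v s hs := by rw [P.Ψ_eq v s hs, L.φ_smul, F.smul]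
  dir y := P.dir (g⁻¹ • y)
  meas_dir := P.meas_dir.comp (continuous_const_smul g⁻¹).measurable
  dir_Ψ v s hs := by rw [inv_smul_smul, P.dir_Ψ v s hs]
  lo := by
    simp only [aa_smul L hg]
    exact P.lo
  hi := by
    simp only [aa_smul L hg]
    exact P.hi

/-- The polar systems of all points. -/
structure Vis (F : Foot L Y) (W : X → ℝ) (vol : Measure Y) where
  Ω : Type
  mΩ : MeasurableSpace Ω
  c : ℝ
  C : ℝ
  c_pos : 0 < c
  C_pos : 0 < C
  pt : ∀ q : Y, PSys F W vol Ω (F.ft ⁻¹' {q}) c C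
  pt_R : ∀ q y, y ≠ q → y ∈ (pt q).R
  pos : ∀ q (U : Set B), IsOpen U → U.Nonempty → (pt q).bd U ≠ 0
  vol_smul : ∀ g : Γ, MeasurePreserving (fun y : Y => g • y) vol vol
  vol_fin : IsFiniteMeasureOnCompacts vol

/-- the hypotheses on the function `W` -/
structure Reg (L : Leaf Γ X B) (W : X → ℝ) : Prop where
  cont : Continuous W
  smul : ∀ (g : Γ) x, W (g • x) = W x
  rot : ∀ a x, W (L.rot a x) = W x
  hold : Hold W
  hold' : Hold fun x => W (L.flip x)

namespace Foot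

variable (F : Foot L Y)

omit [MeasurableSpace B] [BorelSpace B] [MeasurableSpace Y] [BorelSpace Y]

theorem frame_ep (q : Y) (η : B) : ∃ x, F.ft x = q ∧ L.ep x = η := by
  obtain ⟨x, h1, h2⟩ := F.frame q η
  exact ⟨L.flip x, by rw [F.flip, h1], by rw [ep_flip', h2]⟩

/-- the starting point of the geodesic through `q` which ends in `η` -/
def E (q : Y) (η : B) : B := L.em (F.frame_ep q η).choose

theorem E_eq (x : X) : F.E (F.ft x) (L.ep x) = L.em x := by
  have h := (F.frame_ep (F.ft x) (L.ep x)).choose_spec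
  exact F.uniq _ _ h.1 h.2

theorem E_cont : Continuous fun p : Y × B => F.E p.1 p.2 := by
  have h1 : Continuous fun x : X => (F.ft x, L.ep x) := F.cont.prodMk (ep_cont L)
  have h2 : IsProperMap fun x : X => (F.ft x, L.ep x) := by
    rw [isProperMap_iff_isCompact_preimage]
    refine ⟨h1, fun K hK => ?_⟩
    refine (F.proper (Prod.fst '' K) (hK.image continuous_fst)).of_isClosed_subset
      (hK.isClosed.preimage h1) fun x hx => ⟨_, hx, rfl⟩
  have h3 : Function.Surjective fun x : X => (F.ft x, L.ep x) := by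
    rintro ⟨q, η⟩
    obtain ⟨x, h4, h5⟩ := F.frame_ep q η
    exact ⟨x, by simp only [h4, h5]⟩
  rw [(h2.isClosedMap.isQuotientMap h2.continuous h3).continuous_iff]
  have h4 : (fun p : Y × B => F.E p.1 p.2) ∘ (fun x : X => (F.ft x, L.ep x)) = L.em := by
    funext x
    exact F.E_eq x
  rw [h4]
  exact L.em_cont

theorem dist_ft_φ (x : X) (s : ℝ) (hs : 0 ≤ s) : dist (F.ft x) (F.ft (L.φ s x)) = s := by
  rw [F.unit, abs_of_nonneg hs]

end Foot

namespace Vis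

variable {F : Foot L Y} {W : X → ℝ} {vol : Measure Y} (V : Vis F W vol)
  [SecondCountableTopology B]

instance : MeasurableSpace V.Ω := V.mΩ

omit [BorelSpace B] [BorelSpace Y] [SecondCountableTopology B] in
theorem ft_f (q : Y) (v : V.Ω) : F.ft ((V.pt q).f v) = q := (V.pt q).f_mem v

omit [BorelSpace B] [BorelSpace Y] [SecondCountableTopology B] in
theorem finite_bd (q : Y) : IsFiniteMeasure (V.pt q).bd := by
  have := (V.pt q).finite
  unfold PSys.bd
  infer_instance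

omit [BorelSpace Y] in
/-- AC1 -/
theorem ac_pt (hW : Reg L W) (o q : Y) : (V.pt o).bd ≪ (V.pt q).bd := by
  set K : Set X := F.ft ⁻¹' {o, q} with hK
  have hKc : IsCompact K := F.proper _ (Set.toFinite _).isCompact
  obtain ⟨A, hA0, hA⟩ := PSys.le (F := F) (vol := vol) (c₀ := V.c) (C₁ := V.C) hW.cont hW.smul
    hW.rot hW.hold hW.hold' hKc V.c_pos V.C_pos
  have h1 := hA ((V.pt q).weak (K' := K) (fun x hx => by
      change F.ft x ∈ ({o, q} : Set Y)
      rw [show F.ft x = q from hx]; simp) le_rfl le_rfl)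
    ((V.pt o).weak (K' := K) (fun x hx => by
      change F.ft x ∈ ({o, q} : Set Y)
      rw [show F.ft x = o from hx]; simp) le_rfl le_rfl) ⟨max 0 (dist o q), fun v s hs => by
        have hs0 : 0 < s := (le_max_left _ _).trans_lt hs
        refine V.pt_R q _ ?_
        change (V.pt o).Ψ v s ≠ q
        rw [(V.pt o).Ψ_eq v s hs0]
        intro h
        have h2 := F.dist_ft_φ ((V.pt o).f v) s hs0.le
        rw [h, V.ft_f] at h2
        exact absurd h2 ((le_max_right _ _).trans_lt hs).ne⟩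
  refine Measure.AbsolutelyContinuous.mk fun s _ h => ?_
  have h2 := h1 s
  rw [Measure.smul_apply] at h2
  have h3 : ((V.pt q).weak (K' := K) (fun x hx => by
      change F.ft x ∈ ({o, q} : Set Y)
      rw [show F.ft x = q from hx]; simp) le_rfl le_rfl).bd s = 0 := h
  rw [h3, smul_zero] at h2
  exact le_antisymm h2 zero_le

/-- quasi-invariance -/
theorem qi (hW : Reg L W) (o : Y) (g : Γ) : ((V.pt o).bd.map fun ξ => g • ξ) ≪ (V.pt o).bd := by
  set K : Set X := F.ft ⁻¹' {o, g • o} with hK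
  have hKc : IsCompact K := F.proper _ (Set.toFinite _).isCompact
  obtain ⟨A, hA0, hA⟩ := PSys.le (F := F) (vol := vol) (c₀ := V.c) (C₁ := V.C) hW.cont hW.smul
    hW.rot hW.hold hW.hold' hKc V.c_pos V.C_pos
  have h1 := hA ((V.pt o).weak (K' := K) (fun x hx => by
      change F.ft x ∈ ({o, g • o} : Set Y)
      rw [show F.ft x = o from hx]; simp) le_rfl le_rfl)
    (((V.pt o).smul hW.smul g (V.vol_smul g)).weak (K' := K) (by
      rintro _ ⟨x, hx, rfl⟩
      change F.ft (g • x) ∈ ({o, g • o} : Set Y)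
      rw [F.smul, show F.ft x = o from hx]; simp) le_rfl le_rfl)
      ⟨max 0 (dist (g • o) o), fun v s hs => by
        have hs0 : 0 < s := (le_max_left _ _).trans_lt hs
        refine V.pt_R o _ ?_
        change g • (V.pt o).Ψ v s ≠ o
        rw [(V.pt o).Ψ_eq v s hs0]
        intro h
        have h2 := F.dist_ft_φ ((V.pt o).f v) s hs0.le
        rw [← dist_smul g, h, V.ft_f] at h2
        exact absurd h2 ((le_max_right _ _).trans_lt hs).ne⟩
  have e1 : (((V.pt o).smul hW.smul g (V.vol_smul g)).weak (K' := K) (by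
      rintro _ ⟨x, hx, rfl⟩
      change F.ft (g • x) ∈ ({o, g • o} : Set Y)
      rw [F.smul, show F.ft x = o from hx]; simp) le_rfl le_rfl).bd =
      (V.pt o).bd.map fun ξ => g • ξ := by
    unfold PSys.bd
    rw [Measure.map_map (continuous_const_smul g).measurable (V.pt o).f_ep]
    change (V.pt o).θ.map (fun v => L.ep (g • (V.pt o).f v)) = _
    congr 1
    funext v
    exact ep_smul L g _
  rw [e1] at h1
  refine Measure.AbsolutelyContinuous.mk fun s _ h => ?_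
  have h2 := h1 s
  rw [Measure.smul_apply] at h2
  have h3 : ((V.pt o).weak (K' := K) (fun x hx => by
      change F.ft x ∈ ({o, g • o} : Set Y)
      rw [show F.ft x = o from hx]; simp) le_rfl le_rfl).bd s = 0 := h
  rw [h3, smul_zero] at h2
  exact le_antisymm h2 zero_le

omit [BorelSpace Y] in
/-- the estimate of the measure of a closed set by the volume of a truncated cone over it -/
theorem cone (hW : Reg L W) (o : Y) (x₀ : X) {A : Set B} (hA : IsClosed A)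
    (hx : L.em x₀ ∉ A) (hA0 : (V.pt o).bd A ≠ 0) : ∃ (a : ℝ≥0∞) (b : NNReal) (D : Set Y), a ≠ 0 ∧
      IsCompact D ∧ ∀ n : ℕ, a * (V.pt o).bd A ≤ b * vol {y | y ∈ D ∧ ∃ z t, (n : ℝ) ≤ t ∧
        F.ft z = y ∧ F.ft (L.φ (-t) z) = F.ft (L.φ (-(n : ℝ)) x₀) ∧ L.ep z ∈ A} := by
  obtain ⟨CW, hCW0, hCW⟩ := exists_bound L hW.cont hW.smul
  obtain ⟨Q', hQ'c, hQ'1, hQ'2⟩ := exists_compact_between hA.isCompact
    (isOpen_compl_singleton (x := L.em x₀)) (fun ζ hζ h => hx (by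
      rw [mem_singleton_iff] at h; exact h ▸ hζ))
  obtain ⟨K₁, hK₁c, hK₁⟩ := F.reach_pt x₀ hQ'c (fun h => hQ'2 h rfl)
  set K : Set X := K₁ ∪ F.ft ⁻¹' {o} with hK
  have hKc : IsCompact K := hK₁c.union (F.proper _ isCompact_singleton)
  obtain ⟨A₀, -, hA₀⟩ := PSys.le (F := F) (vol := vol) (c₀ := V.c) (C₁ := V.C) hW.cont hW.smul
    hW.rot hW.hold hW.hold' hKc V.c_pos V.C_pos
  set D : Set Y := (fun p : ℝ × X => F.ft (L.φ p.1 p.2)) '' (Icc 1 2 ×ˢ K) with hD
  have hDc : IsCompact D := (isCompact_Icc.prod hKc).image (F.cont.comp L.φ_cont)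
  set a : ℝ := V.c * Real.exp (-(CW * 2)) with ha
  have ha0 : 0 < a := mul_pos V.c_pos (Real.exp_pos _)
  refine ⟨ENNReal.ofReal a, A₀, D, by
    rw [Ne, ENNReal.ofReal_eq_zero, not_le]; exact ha0, hDc, fun n => ?_⟩
  set q : Y := F.ft (L.φ (-(n : ℝ)) x₀) with hq
  set Vn : Set Y := {y | y ∈ D ∧ ∃ z t, (n : ℝ) ≤ t ∧ F.ft z = y ∧
    F.ft (L.φ (-t) z) = q ∧ L.ep z ∈ A} with hVn
  have hex : ∀ q' : Y, (V.pt q').bd A ≠ 0 → ∃ v, L.ep ((V.pt q').f v) ∈ A := by
    intro q' h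
    by_contra hcon
    push Not at hcon
    apply h
    unfold PSys.bd
    rw [Measure.map_apply (V.pt q').f_ep hA.measurableSet]
    convert measure_empty (μ := (V.pt q').θ)
    ext v
    simp [hcon v]
  have hq0 : (V.pt q).bd A ≠ 0 := fun h => hA0 (V.ac_pt hW o q h)
  obtain ⟨v₁, hv₁⟩ := hex o hA0
  obtain ⟨v₀, hv₀⟩ := hex q hq0
  have hS₁ : MeasurableSet {v | L.ep ((V.pt o).f v) ∈ A} := (V.pt o).f_ep hA.measurableSet
  have hS₀ : MeasurableSet {v | L.ep ((V.pt q).f v) ∈ Q'} :=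
    (V.pt q).f_ep hQ'c.isClosed.measurableSet
  set P₁ := ((V.pt o).sub hS₁ ⟨v₁, hv₁⟩).weak (K' := K) (c' := V.c) (C' := V.C)
    (fun x hx => Or.inr hx) le_rfl le_rfl with hP₁
  have hv₀' : L.ep ((V.pt q).f v₀) ∈ Q' := interior_subset (hQ'1 hv₀)
  set P₀ := ((V.pt q).sub hS₀ ⟨v₀, hv₀'⟩).shift hW.cont hCW (T := n)
    (Nat.cast_nonneg n) (K' := K) (fun v => Or.inl (hK₁ n (Nat.cast_nonneg n) _
      (V.ft_f q v) v.2)) with hP₀
  have hR : ∃ S : ℝ, ∀ v s, S < s → P₁.Ψ v s ∈ P₀.R := by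
    obtain ⟨S₂, hS₂0, hS₂⟩ := F.end_close (K := F.ft ⁻¹' {o, q})
      (F.proper _ (Set.toFinite _).isCompact) (U := {p : B × B | p.1 ∉ A ∨ p.2 ∈ interior Q'})
      ((hA.isOpen_compl.preimage continuous_fst).union
        (isOpen_interior.preimage continuous_snd)) (fun η => by
          by_cases h : η ∈ A
          · exact Or.inr (hQ'1 h)
          · exact Or.inl h)
    refine ⟨max 0 (max S₂ (dist o q + n)), fun v s hs => ?_⟩
    have hs0 : 0 < s := (le_max_left _ _).trans_lt hs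
    have hs2 : S₂ ≤ s := ((le_max_left _ _).trans (le_max_right _ _)).trans hs.le
    have hs3 : dist o q + n < s := ((le_max_right _ _).trans (le_max_right _ _)).trans_lt hs
    have hn0 : (0 : ℝ) ≤ n := Nat.cast_nonneg n
    have e0 : P₁.Ψ v s = F.ft (L.φ s ((V.pt o).f v)) := (V.pt o).Ψ_eq v s hs0
    have hdist : dist o (P₁.Ψ v s) = s := by
      rw [e0]
      have := F.dist_ft_φ ((V.pt o).f v) s hs0.le
      rwa [V.ft_f] at this
    have hyR : P₁.Ψ v s ∈ (V.pt q).R := by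
      refine V.pt_R q _ fun h => ?_
      rw [h] at hdist
      linarith
    obtain ⟨v', s', hs', h1⟩ := (V.pt q).range _ hyR
    have h2 : F.ft (L.φ s ((V.pt o).f v)) = F.ft (L.φ s' ((V.pt q).f v')) := by
      rw [← e0, ← h1, (V.pt q).Ψ_eq v' s' hs']
    have h3 := hS₂ _ (show (V.pt o).f v ∈ F.ft ⁻¹' {o, q} by
        rw [mem_preimage, V.ft_f]; simp) _
      (show (V.pt q).f v' ∈ F.ft ⁻¹' {o, q} by rw [mem_preimage, V.ft_f]; simp) s s' hs2 hs'.le h2
    have h4 : L.ep ((V.pt q).f v') ∈ interior Q' := by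
      rcases h3 with h | h
      · exact absurd v.2 h
      · exact h
    have h5 : s' = dist q (P₁.Ψ v s) := by
      rw [← h1, (V.pt q).Ψ_eq v' s' hs']
      have := F.dist_ft_φ ((V.pt q).f v') s' hs'.le
      rw [V.ft_f] at this
      exact this.symm
    have h6 : (n : ℝ) < s' := by
      have := dist_triangle o q (P₁.Ψ v s)
      rw [hdist, ← h5] at this
      linarith
    refine ⟨⟨hyR, ?_⟩, ?_⟩
    · rw [mem_preimage, ← h1, (V.pt q).dir_Ψ v' s' hs']
      exact (interior_subset h4 : L.ep ((V.pt q).f v') ∈ Q')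
    · change (n : ℝ) < (V.pt q).ρ (P₁.Ψ v s)
      rw [← h1, (V.pt q).ρ_Ψ v' s' hs']
      exact h6
  have h1 := hA₀ P₀ P₁ hR A
  rw [Measure.smul_apply] at h1
  have e1 : P₁.bd A = (V.pt o).bd A := by
    have e2 : P₁.bd = ((V.pt o).θ.restrict {v | L.ep ((V.pt o).f v) ∈ A}).map
        fun v => L.ep ((V.pt o).f v) := (V.pt o).sub_bd hS₁ ⟨v₁, hv₁⟩
    rw [e2, Measure.map_apply (V.pt o).f_ep hA.measurableSet, PSys.bd,
      Measure.map_apply (V.pt o).f_ep hA.measurableSet, Measure.restrict_apply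
        ((V.pt o).f_ep hA.measurableSet)]
    congr 1
    ext v
    simp
  have h2 := P₀.bd_le_vol hCW0 hCW V.c_pos hA.measurableSet
  have h3 : {y | y ∈ P₀.R ∧ P₀.ρ y ∈ Ioc (1 : ℝ) 2 ∧ L.ep (P₀.f (P₀.dir y)) ∈ A} ⊆ Vn := by
    rintro y ⟨hy, hyρ, hyA⟩
    obtain ⟨v, s, hs, rfl⟩ := P₀.range y hy
    rw [P₀.ρ_Ψ v s hs] at hyρ
    rw [P₀.dir_Ψ v s hs] at hyA
    have e3 : P₀.Ψ v s = F.ft (L.φ s (P₀.f v)) := P₀.Ψ_eq v s hs
    have e4 : P₀.f v = L.φ n ((V.pt q).f v) := rfl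
    refine ⟨⟨(s, P₀.f v), ⟨⟨hyρ.1.le, hyρ.2⟩, P₀.f_mem v⟩, e3.symm⟩,
      L.φ s (P₀.f v), s + n, by linarith, e3.symm, ?_, by rwa [ep_φ]⟩
    rw [e4, ← L.φ_add, ← L.φ_add, show -(s + (n : ℝ)) + s + n = 0 by ring, L.φ_zero, V.ft_f]
  calc ENNReal.ofReal a * (V.pt o).bd A ≤ ENNReal.ofReal a * (A₀ • P₀.bd A) := by
        rw [← e1]
        exact mul_le_mul_right h1 _
    _ = A₀ * (ENNReal.ofReal a * P₀.bd A) := by
        rw [ENNReal.smul_def, smul_eq_mul]; ring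
    _ ≤ A₀ * vol Vn := mul_le_mul_right (h2.trans (measure_mono h3)) _

omit [MeasurableSpace B] [BorelSpace B] [MeasurableSpace Y] [BorelSpace Y]
  [SecondCountableTopology B] in
/-- the cones converge -/
theorem cone_limit (F : Foot L Y) (x₀ : X) {A : Set B} (hA : IsClosed A) {D O : Set Y}
    (hD : IsCompact D) (hO : IsOpen O)
    (h : ∀ z, L.em z = L.em x₀ → L.ep z ∈ A → F.ft z ∈ O) :
    ∃ n : ℕ, {y | y ∈ D ∧ ∃ z t, (n : ℝ) ≤ t ∧
        F.ft z = y ∧ F.ft (L.φ (-t) z) = F.ft (L.φ (-(n : ℝ)) x₀) ∧ L.ep z ∈ A} ⊆ O := by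
  by_contra hcon
  push Not at hcon
  have h1 : ∀ n : ℕ, ∃ z t, F.ft z ∈ D ∧ F.ft z ∉ O ∧ (n : ℝ) ≤ t ∧
      F.ft (L.φ (-t) z) = F.ft (L.φ (-(n : ℝ)) x₀) ∧ L.ep z ∈ A := by
    intro n
    obtain ⟨y, ⟨hy1, z, t, h2, h3, h4, h5⟩, hyO⟩ := not_subset.1 (hcon n)
    subst h3
    exact ⟨z, t, hy1, hyO, h2, h4, h5⟩
  choose z t hzD hzO hzt hzf hzA using h1
  obtain ⟨z₀, hz₀, ψ, hψ, hlim⟩ := (F.proper D hD).tendsto_subseq (x := z) fun n => hzD n
  have hK₃ : IsCompact (L.flip '' (F.ft ⁻¹' D) ∪ {L.flip x₀}) :=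
    ((F.proper D hD).image L.flip_cont).union isCompact_singleton
  have h2 : L.ep (L.flip z₀) = L.ep (L.flip x₀) := by
    refine F.end_limit hK₃ (p := fun n => (L.flip (z (ψ n)), L.flip x₀)) (fun n => ?_)
      (q := (L.flip z₀, L.flip x₀)) ?_
    · have hn : (n : ℝ) ≤ ψ n := by exact_mod_cast hψ.id_le n
      refine ⟨Or.inl ⟨_, hzD _, rfl⟩, Or.inr rfl, t (ψ n), ψ n, hn.trans (hzt _),
        (Nat.cast_nonneg _).trans (hzt _), Nat.cast_nonneg _, ?_⟩
      have e1 : ∀ (x : X) (r : ℝ), F.ft (L.φ r (L.flip x)) = F.ft (L.φ (-r) x) := by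
        intro x r
        rw [← F.flip (L.φ (-r) x), L.flip_φ, neg_neg]
      simp only
      rw [e1, e1, hzf]
    · exact ((L.flip_cont.tendsto z₀).comp hlim).prodMk_nhds tendsto_const_nhds
  rw [ep_flip', ep_flip'] at h2
  have h3 : L.ep z₀ ∈ A := hA.mem_of_tendsto (((ep_cont L).tendsto z₀).comp hlim)
    (Eventually.of_forall fun n => hzA _)
  have h4 : F.ft z₀ ∈ Oᶜ := hO.isClosed_compl.mem_of_tendsto ((F.cont.tendsto z₀).comp hlim)
    (Eventually.of_forall fun n => hzO _)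
  exact h4 (h z₀ h2 h3)

/-- **Absolute continuity of the foliation by geodesics which come from `em x₀`.** -/
theorem null_leaf (hW : Reg L W) (o : Y) (x₀ : X) {N : Set B} (hN : MeasurableSet N)
    (hx : L.em x₀ ∉ N)
    (h0 : vol {y | ∃ z, F.ft z = y ∧ L.em z = L.em x₀ ∧ L.ep z ∈ N} = 0) :
    (V.pt o).bd N = 0 := by
  have := V.finite_bd o
  have := V.vol_fin
  by_contra hne
  obtain ⟨A, hAN, hA, hA0⟩ : ∃ A ⊆ N, IsClosed A ∧ (V.pt o).bd A ≠ 0 := by
    let _ : MetricSpace B := TopologicalSpace.metrizableSpaceMetric B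
    have h1 := hN.measure_eq_iSup_isClosed_of_ne_top (measure_ne_top (V.pt o).bd N)
    by_contra hcon
    push Not at hcon
    apply hne
    rw [h1]
    simp only [ENNReal.iSup_eq_zero]
    exact fun A hAN hA => hcon A hAN hA
  obtain ⟨a, b, D, ha, hD, hn⟩ := V.cone hW o x₀ hA (fun h => hx (hAN h)) hA0
  have h1 : ∀ ε : ℝ≥0∞, 0 < ε → a * (V.pt o).bd A ≤ b * ε := by
    intro ε hε
    have h2 : vol {y | ∃ z, F.ft z = y ∧ L.em z = L.em x₀ ∧ L.ep z ∈ N} < ε := by rwa [h0]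
    obtain ⟨O, hO1, hO2, hO3⟩ := Set.exists_isOpen_lt_of_lt _ ε h2
    obtain ⟨n, hn'⟩ := cone_limit F x₀ hA hD hO2 fun z h3 h4 => hO1 ⟨z, rfl, h3, hAN h4⟩
    exact (hn n).trans (mul_le_mul_right ((measure_mono hn').trans hO3.le) _)
  have h7 : Tendsto (fun ε : ℝ≥0∞ => (b : ℝ≥0∞) * ε) (𝓝[>] 0) (𝓝 ((b : ℝ≥0∞) * 0)) := by
    have hid : Tendsto (fun ε : ℝ≥0∞ => ε) (𝓝[>] 0) (𝓝 0) := nhdsWithin_le_nhds
    exact ENNReal.Tendsto.const_mul hid (Or.inr ENNReal.coe_ne_top)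
  have h8 : a * (V.pt o).bd A ≤ b * 0 :=
    ge_of_tendsto h7 (by filter_upwards [self_mem_nhdsWithin] with ε hε using h1 ε hε)
  rw [mul_zero, nonpos_iff_eq_zero, mul_eq_zero] at h8
  exact h8.elim ha hA0

/-- **Liouville null sets of geodesics are null in Hopf coordinates.** -/
theorem null (hW : Reg L W) (o : Y) {N : Set (B × B)} (hN : MeasurableSet N)
    (hNd : ∀ η, (η, η) ∉ N)
    (h : ∀ᵐ q ∂vol, ∀ᵐ v ∂(V.pt q).θ, (L.em ((V.pt q).f v), L.ep ((V.pt q).f v)) ∉ N) :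
    ((V.pt o).bd.prod (V.pt o).bd) N = 0 := by
  have := V.finite_bd o
  have := V.vol_fin
  -- for almost all `q` and almost all `η`
  have hm : MeasurableSet {p : Y × B | (F.E p.1 p.2, p.2) ∈ N} :=
    (F.E_cont.measurable.prodMk measurable_snd) hN
  have h1 : ∀ᵐ q ∂vol, ∀ᵐ η ∂(V.pt o).bd, (F.E q η, η) ∉ N := by
    filter_upwards [h] with q hq
    have hmq : MeasurableSet {η : B | (F.E q η, η) ∉ N} :=
      (hm.preimage measurable_prodMk_left).compl
    have h5 : ∀ᵐ η ∂(V.pt q).bd, (F.E q η, η) ∉ N := by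
      unfold PSys.bd
      rw [ae_map_iff (V.pt q).f_ep.aemeasurable hmq]
      filter_upwards [hq] with v hv
      have e1 := F.E_eq ((V.pt q).f v)
      rw [V.ft_f] at e1
      rwa [e1]
    exact (V.ac_pt hW o q).ae_le h5
  have h2 : ∀ᵐ η ∂(V.pt o).bd, ∀ᵐ q ∂vol, (F.E q η, η) ∉ N := by
    have h3 : ∀ᵐ p ∂(vol.prod (V.pt o).bd), p ∈ {p : Y × B | (F.E p.1 p.2, p.2) ∈ N}ᶜ :=
      (Measure.ae_prod_mem_iff_ae_ae_mem hm.compl).2 h1
    have h4 : ∀ᵐ p ∂((V.pt o).bd.prod vol), p.swap ∈ {p : Y × B | (F.E p.1 p.2, p.2) ∈ N}ᶜ :=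
      (Measure.measurePreserving_swap (μ := (V.pt o).bd) (ν := vol)).quasiMeasurePreserving.ae h3
    exact Measure.ae_ae_of_ae_prod h4
  -- conclusion
  rw [Measure.prod_apply_symm hN]
  rw [lintegral_eq_zero_iff (measurable_measure_prodMk_right hN)]
  filter_upwards [h2] with η hη
  obtain ⟨x₀, -, hx₀⟩ := F.frame o η
  refine V.null_leaf hW o x₀ (N := (fun ξ => (ξ, η)) ⁻¹' N) (hN.preimage measurable_prodMk_right)
    (by rw [hx₀]; exact hNd η) ?_
  rw [ae_iff] at hη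
  refine measure_mono_null ?_ hη
  rintro y ⟨z, rfl, hz, hzN⟩
  simp only [not_not]
  change (F.E (F.ft z) η, η) ∈ N
  have e1 := F.E_eq (L.flip z)
  rw [F.flip, ep_flip', hz, hx₀, ← L.ep_flip] at e1
  rw [e1]
  exact hzN

/-- **Absolute continuity: the structure `HopfAC`.** -/
theorem hopfAC (hW : Reg L W) (o : Y) {Z : Type} [TopologicalSpace Z] [MeasurableSpace Z]
    [BorelSpace Z] [T2Space Z] [CompactSpace Z] {ϕ : ℝ → Z → Z} {π : X → Z}
    (hπ : Factor L ϕ π) (m : Measure Z) [IsFiniteMeasure m] [m.WeaklyRegular]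
    (hdis : ∀ G : Set Z, MeasurableSet G → (∀ᵐ v ∂m, v ∈ G) →
      ∀ᵐ q ∂vol, ∀ᵐ v ∂(V.pt q).θ, π ((V.pt q).f v) ∈ G) :
    HopfAC L ϕ π m (V.pt o).bd := by
  have := V.finite_bd o
  refine HopfAC.of_prod (V.pos o) (V.qi hW o) fun G hG hGinv hGae => ?_
  -- a σ-compact invariant conull subset
  have hG0 : m Gᶜ = 0 := hGae
  have h1 : ∀ n : ℕ, ∃ K ⊆ G, IsClosed K ∧ m (G \ K) < ((n : ℝ≥0∞) + 1)⁻¹ := fun n =>
    hG.exists_isClosed_sdiff_lt (measure_ne_top m G) (by simp)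
  choose K hKG hKc hKm using h1
  set G' : Set Z := ⋃ (n : ℕ) (k : ℕ), (fun p : ℝ × Z => ϕ p.1 p.2) '' (Icc (-(k : ℝ)) k ×ˢ K n)
    with hG'
  have hcpt : ∀ (n k : ℕ), IsCompact ((fun p : ℝ × Z => ϕ p.1 p.2) '' (Icc (-(k : ℝ)) k ×ˢ K n)) :=
    fun n k => (isCompact_Icc.prod (hKc n).isCompact).image hπ.flow.cont
  have hG'G : G' ⊆ G := by
    refine iUnion₂_subset fun n k => ?_
    rintro _ ⟨⟨t, v⟩, ⟨-, hv⟩, rfl⟩
    exact hGinv t v (hKG n hv)
  have hG'm : MeasurableSet G' := MeasurableSet.iUnion fun n => MeasurableSet.iUnion fun k =>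
    (hcpt n k).isClosed.measurableSet
  have hKG' : ∀ n, K n ⊆ G' := fun n v hv =>
    mem_iUnion₂.2 ⟨n, 0, (0, v), ⟨by simp, hv⟩, hπ.flow.zero v⟩
  have hG'inv : ∀ t, ∀ v ∈ G', ϕ t v ∈ G' := by
    intro t v hv
    obtain ⟨n, k, ⟨s, w⟩, ⟨hs, hw⟩, rfl⟩ := mem_iUnion₂.1 hv
    refine mem_iUnion₂.2 ⟨n, k + ⌈|t|⌉₊, (t + s, w), ⟨?_, hw⟩, hπ.flow.add t s w⟩
    have h2 : |t| ≤ ⌈|t|⌉₊ := Nat.le_ceil _
    rw [abs_le] at h2
    simp only [mem_Icc] at hs ⊢
    push_cast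
    constructor <;> linarith [hs.1, hs.2, h2.1, h2.2]
  have hG'ae : ∀ᵐ v ∂m, v ∈ G' := by
    have h2 : m (G \ G') = 0 := by
      have h3 : ∀ n : ℕ, m (G \ G') ≤ ((n : ℝ≥0∞) + 1)⁻¹ := fun n =>
        (measure_mono (sdiff_subset_sdiff_right (hKG' n))).trans (hKm n).le
      have h4 : Tendsto (fun n : ℕ => ((n : ℝ≥0∞) + 1)⁻¹) atTop (𝓝 0) := by
        have h5 := ENNReal.tendsto_inv_nat_nhds_zero.comp (tendsto_add_atTop_nat 1)
        refine h5.congr fun n => ?_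
        simp
      exact le_antisymm (ge_of_tendsto' h4 h3) zero_le
    rw [ae_iff]
    refine measure_mono_null (t := Gᶜ ∪ (G \ G')) (fun v hv => ?_) (measure_union_null hG0 h2)
    by_cases hvG : v ∈ G
    · exact Or.inr ⟨hvG, hv⟩
    · exact Or.inl hvG
  -- the good set of pairs
  set Gd : Set (B × B) := (fun x => (L.em x, L.ep x)) '' (π ⁻¹' G') with hGd
  have hq : Continuous fun x : X => (L.em x, L.ep x) := L.em_cont.prodMk (ep_cont L)
  have hGdm : MeasurableSet Gd := by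
    obtain ⟨x₁⟩ := L.nonempty
    have h2 : Gd = ⋃ (n : ℕ) (k : ℕ) (l : ℕ), (fun x => (L.em x, L.ep x)) ''
        (π ⁻¹' ((fun p : ℝ × Z => ϕ p.1 p.2) '' (Icc (-(k : ℝ)) k ×ˢ K n)) ∩
          closedBall x₁ l) := by
      ext p
      simp only [hGd, hG', mem_iUnion, mem_image, preimage_iUnion]
      constructor
      · rintro ⟨x, ⟨n, k, hx⟩, rfl⟩
        exact ⟨n, k, ⌈dist x x₁⌉₊, x, ⟨hx, mem_closedBall.2 (Nat.le_ceil _)⟩, rfl⟩
      · rintro ⟨n, k, l, x, ⟨hx, -⟩, rfl⟩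
        exact ⟨x, ⟨n, k, hx⟩, rfl⟩
    rw [h2]
    refine MeasurableSet.iUnion fun n => MeasurableSet.iUnion fun k => MeasurableSet.iUnion fun l =>
      ?_
    refine IsClosed.measurableSet ?_
    refine (IsCompact.image ?_ hq).isClosed
    exact (isCompact_closedBall x₁ (l : ℝ)).inter_left ((hcpt n k).isClosed.preimage hπ.cont)
  -- the bad set
  have hdiag : MeasurableSet {p : B × B | p.1 ≠ p.2} :=
    (isOpen_ne_fun continuous_fst continuous_snd).measurableSet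
  have h3 : ((V.pt o).bd.prod (V.pt o).bd) (Gdᶜ ∩ {p : B × B | p.1 ≠ p.2}) = 0 := by
    refine V.null hW o (hGdm.compl.inter hdiag) (fun η h => h.2 rfl) ?_
    filter_upwards [hdis G' hG'm hG'ae] with q hq'
    filter_upwards [hq'] with v hv
    intro h
    exact h.1 ⟨_, hv, rfl⟩
  rw [ae_iff]
  refine measure_mono_null (fun p hp => ?_) h3
  rw [mem_ofPred_eq] at hp
  push Not at hp
  obtain ⟨x, hx1, hx2, hx3⟩ := hp
  refine ⟨fun hpG => hx3 ?_, ?_⟩
  · obtain ⟨x', hx', he⟩ := hpG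
    have e1 : L.em x' = p.1 := congrArg Prod.fst he
    have e2 : L.ep x' = p.2 := congrArg Prod.snd he
    obtain ⟨a, ha⟩ := L.frame_unique (L.φ (L.lv x - L.lv x') x') x (by rw [L.em_φ, e1, hx1])
      (by rw [ep_φ, e2, hx2]) (by rw [L.lv_φ]; ring)
    rw [ha, hπ.rot, hπ.φ]
    exact hG'G (hG'inv _ _ hx')
  · change p.1 ≠ p.2
    rw [← hx1, ← hx2]
    exact L.em_ne_ep x

end Vis

end Vale.Agent.P207.N4.H348
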