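import Vale.Agent.P207.N4.Dim
import Vale.Agent.P207.N4.H348.PsysG
import Vale.Agent.P207.N4.H824.Top

/-!
# P207, line N3, P2: absolute continuity over the geometry `Geo`
-/

open Set Filter Topology Metric MeasureTheory
open scoped ENNReal

noncomputable section

namespace Vale.Agent.P207.N4.H348

open Vale.Agent.P207.N3 Vale.Agent.P207.N3.H348

variable [Dim]

open H728 H76 H732

variable {Γ X Y : Type} [Group Γ] [MetricSpace X] [ProperSpace X] [MetricSpace Y]
  [ProperSpace Y] [MulAction Γ X] [MulAction Γ Y] [IsIsometricSMul Γ X] [IsIsometricSMul Γ Y]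
  {G : Geo Γ X Y} {o : Y} {L : Leaf Γ X (G.Bnd o)}
  [MeasurableSpace Y] [BorelSpace Y] [MeasurableSpace (G.Bnd o)] [BorelSpace (G.Bnd o)]

/-- all polar systems -/
def visG (hGL : GeoLeaf G o L) {W : X → ℝ} (hW : Reg L W) {vol : Measure Y} {c C : ℝ}
    (hc : 0 < c) (hC : 0 < C) (S : ∀ q, PtSys (L := L) W vol c C q)
    (hvol : ∀ g : Γ, MeasurePreserving (fun y : Y => g • y) vol vol)
    (hfin : IsFiniteMeasureOnCompacts vol) : Vis hGL.foot W vol where
  Ω := sphere (0 : E3) 1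
  mΩ := inferInstance
  c := c
  C := C
  c_pos := hc
  C_pos := hC
  pt q := psysG hGL hW.cont hW.rot (S q).x (S q).P (S q).Ψ (S q).dir (S q).meas_dir (S q).dir_Ψ
    (S q).lo (S q).hi (S q).ft_x
  pt_R q y hy := (S q).R y hy
  pos := by
    intro q U hU hne
    have hcont := ep_fu_cont hGL (S q).x
    have h1 : ((psysG hGL hW.cont hW.rot (S q).x (S q).P (S q).Ψ (S q).dir (S q).meas_dir
        (S q).dir_Ψ (S q).lo (S q).hi (S q).ft_x).bd) U =
        (volume : Measure E3).toSphere ((fun u => L.ep (fu G (S q).x u)) ⁻¹' U) := by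
      unfold PSys.bd
      rw [← (S q).θ]
      exact Measure.map_apply hcont.measurable hU.measurableSet
    rw [h1]
    obtain ⟨η, hη⟩ := hne
    obtain ⟨u, hu⟩ := ep_fu_surj hGL (S q).x η
    exact ((hU.preimage hcont).measure_pos _ ⟨u, by rw [mem_preimage, hu]; exact hη⟩).ne'
  vol_smul := hvol
  vol_fin := hfin

/-- **`HopfAC` over the geometry.** -/
theorem hopfAC_geo (hGL : GeoLeaf G o L) {W : X → ℝ} (hW : Reg L W) {vol : Measure Y} {c C : ℝ}
    (hc : 0 < c) (hC : 0 < C) (S : ∀ q, PtSys (L := L) W vol c C q)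
    (hvol : ∀ g : Γ, MeasurePreserving (fun y : Y => g • y) vol vol)
    (hfin : IsFiniteMeasureOnCompacts vol) {Z : Type} [TopologicalSpace Z] [MeasurableSpace Z]
    [BorelSpace Z] [T2Space Z] [CompactSpace Z] {ϕ : ℝ → Z → Z} {π : X → Z}
    (hπ : Factor L ϕ π) (m : Measure Z) [IsFiniteMeasure m] [m.WeaklyRegular]
    (hdis : ∀ G' : Set Z, MeasurableSet G' → (∀ᵐ v ∂m, v ∈ G') →
      ∀ᵐ q ∂vol, ∀ᵐ u ∂(volume : Measure E3).toSphere, π (fu G (S q).x u) ∈ G') :
    ∃ ν₀ : Measure (G.Bnd o), IsFiniteMeasure ν₀ ∧ HopfAC L ϕ π m ν₀ := by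
  have := H824.secondCountable L
  set V := visG hGL hW hc hC S hvol hfin with hV
  refine ⟨(V.pt o).bd, V.finite_bd o, V.hopfAC hW o hπ m fun G' hG' hG'ae => ?_⟩
  filter_upwards [hdis G' hG' hG'ae] with q hq
  have e1 : (V.pt q).θ = (volume : Measure E3).toSphere := (S q).θ
  change ∀ᵐ v ∂(S q).P.θ, π (fu G (S q).x v) ∈ G'
  rw [(S q).θ]
  exact hq

end Vale.Agent.P207.N4.H348
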